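import Mathlib

namespace Vale.Agent.P125.Pol

/-- choice `τ = ⌈t^(2/3)⌉₊`: `t^(2/3) ≤ τ ≤ 2 t^(2/3)`, so `sqrt (t τ) ≤ sqrt 2 t^(5/6)`,
`τ ≤ 2 t^(5/6)`, `t / sqrt (sqrt τ) ≤ t^(5/6)`, total `≤ 2 t + 4 t * 4.92 t^(5/6)`. -/
theorem arith (t : ℕ) (ht : 1 ≤ t) : ∃ τ : ℕ, 1 ≤ τ ∧
    2 * (t : ℝ) + 4 * t * (Real.sqrt ((t : ℝ) * τ) + τ
        + 3 / 2 * ((t : ℝ) / Real.sqrt (Real.sqrt τ))) ≤ 22 * (t : ℝ) ^ ((11 : ℝ) / 6) := by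
  have htR : (1 : ℝ) ≤ (t : ℝ) := by exact_mod_cast ht
  have ht0 : (0 : ℝ) ≤ (t : ℝ) := by linarith
  set x : ℝ := (t : ℝ) ^ ((1 : ℝ) / 6) with hx
  have hx1 : 1 ≤ x := Real.one_le_rpow htR (by norm_num)
  have hx0 : 0 < x := by linarith
  have hx6 : x ^ 6 = (t : ℝ) := by
    rw [hx, ← Real.rpow_natCast, ← Real.rpow_mul ht0]
    norm_num
  have hx11 : (t : ℝ) ^ ((11 : ℝ) / 6) = x ^ 11 := by
    rw [hx, ← Real.rpow_natCast, ← Real.rpow_mul ht0]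
    norm_num
  have hx4 : 1 ≤ x ^ 4 := one_le_pow₀ hx1
  refine ⟨⌈x ^ 4⌉₊, ?_, ?_⟩
  · have : 0 < ⌈x ^ 4⌉₊ := Nat.ceil_pos.mpr (by linarith)
    omega
  set τ : ℝ := ((⌈x ^ 4⌉₊ : ℕ) : ℝ) with hτ
  have h1 : x ^ 4 ≤ τ := Nat.le_ceil _
  have h2 : τ ≤ 2 * x ^ 4 := by
    have := Nat.ceil_lt_add_one (a := x ^ 4) (by positivity)
    rw [hτ]
    linarith
  have hτ0 : 0 < τ := by linarith
  have a1 : Real.sqrt ((t : ℝ) * τ) ≤ 3 / 2 * x ^ 5 := by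
    apply Real.sqrt_le_iff.mpr
    constructor
    · positivity
    · rw [← hx6]
      have : x ^ 6 * τ ≤ x ^ 6 * (2 * x ^ 4) := mul_le_mul_of_nonneg_left h2 (by positivity)
      have h10 : 0 ≤ x ^ 10 := by positivity
      nlinarith
  have a2 : τ ≤ 2 * x ^ 5 := by
    have : x ^ 4 ≤ x ^ 5 := pow_le_pow_right₀ hx1 (by norm_num)
    linarith
  have a3 : x ≤ Real.sqrt (Real.sqrt τ) := by
    rw [Real.le_sqrt' hx0, Real.le_sqrt' (by positivity)]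
    calc (x ^ 2) ^ 2 = x ^ 4 := by ring
      _ ≤ τ := h1
  have hs : 0 < Real.sqrt (Real.sqrt τ) := lt_of_lt_of_le hx0 a3
  have a4 : (t : ℝ) / Real.sqrt (Real.sqrt τ) ≤ x ^ 5 := by
    rw [div_le_iff₀ hs, ← hx6]
    calc x ^ 6 = x ^ 5 * x := by ring
      _ ≤ x ^ 5 * Real.sqrt (Real.sqrt τ) := mul_le_mul_of_nonneg_left a3 (by positivity)
  rw [hx11]
  have b1 : Real.sqrt ((t : ℝ) * τ) + τ + 3 / 2 * ((t : ℝ) / Real.sqrt (Real.sqrt τ)) ≤ 5 * x ^ 5 := by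
    linarith
  have b2 : 4 * (t : ℝ) * (Real.sqrt ((t : ℝ) * τ) + τ
      + 3 / 2 * ((t : ℝ) / Real.sqrt (Real.sqrt τ))) ≤ 4 * (t : ℝ) * (5 * x ^ 5) :=
    mul_le_mul_of_nonneg_left b1 (by positivity)
  have b3 : (t : ℝ) ≤ x ^ 11 := by
    rw [← hx6]
    exact pow_le_pow_right₀ hx1 (by norm_num)
  have b4 : 4 * (t : ℝ) * (5 * x ^ 5) = 20 * x ^ 11 := by
    rw [← hx6]
    ring
  linarith

end Vale.Agent.P125.Pol
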