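import Mathlib

/-! # P125 Pol: the two telescoping lemmas (own measure) -/

namespace Vale.Agent.P125.Pol

open scoped BigOperators
open Finset

private theorem own_step93 (a b : ℝ) : b ^ 2 - a ^ 2 ≤ 2 * (|b| * |b - a|) := by
  have h1 : b * (b - a) ≤ |b| * |b - a| := by
    rw [← abs_mul]
    exact le_abs_self _
  nlinarith [sq_nonneg (b - a)]

private theorem own_up_aux93 (G : ℕ → ℝ) (h0 : G 0 = 0) (j : ℕ) :
    G j ^ 2 ≤ 2 * ∑ i ∈ range j, |G (i + 1)| * |G (i + 1) - G i| := by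
  induction j with
  | zero => simp [h0]
  | succ j ih =>
    rw [Finset.sum_range_succ]
    have := own_step93 (G j) (G (j + 1))
    linarith

/-- `G 0 = 0`: `G k ^ 2 ≤ 2 ∑_{j<n} |G (j+1)| |G (j+1) - G j|` for `k ≤ n`
(`a^2 - b^2 ≤ 2 a (a - b)`). -/
theorem own_up (G : ℕ → ℝ) (h0 : G 0 = 0) (n k : ℕ) (hk : k ≤ n) :
    G k ^ 2 ≤ 2 * ∑ j ∈ range n, |G (j + 1)| * |G (j + 1) - G j| := by
  refine (own_up_aux93 G h0 k).trans ?_
  apply mul_le_mul_of_nonneg_left _ (by norm_num)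
  apply Finset.sum_le_sum_of_subset_of_nonneg
  · intro i hi
    exact Finset.mem_range.2 (lt_of_lt_of_le (Finset.mem_range.1 hi) hk)
  · intro i _ _
    exact mul_nonneg (abs_nonneg _) (abs_nonneg _)

/-- `G n = 0`: `G k ^ 2 ≤ 2 ∑_{j<n} |G j| |G j - G (j+1)|` for `k ≤ n`. -/
theorem own_down (G : ℕ → ℝ) (n : ℕ) (h0 : G n = 0) (k : ℕ) (hk : k ≤ n) :
    G k ^ 2 ≤ 2 * ∑ j ∈ range n, |G j| * |G j - G (j + 1)| := by
  have h := own_up (fun i => G (n - i)) (by simpa using h0) n (n - k) (Nat.sub_le _ _)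
  have e1 : n - (n - k) = k := by omega
  simp only [e1] at h
  refine h.trans (le_of_eq ?_)
  congr 1
  rw [← Finset.sum_range_reflect]
  apply Finset.sum_congr rfl
  intro i hi
  have hi' := Finset.mem_range.1 hi
  have e2 : n - (n - 1 - i + 1) = i := by omega
  have e3 : n - (n - 1 - i) = i + 1 := by omega
  rw [e2, e3]

end Vale.Agent.P125.Pol
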