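import Vale.Agent.P125.Pol.Basic
import Vale.Agent.P125.Pol.Seq

set_option linter.unusedSectionVars false
set_option linter.unusedVariables false

/-! # P125 Pol: Steps 5 and 6 -/

namespace Vale.Agent.P125.Pol

open scoped BigOperators
open Vale.Agent.P125.Dich Finset

variable {S : Type} [Fintype S] [DecidableEq S]

/-- Step 5: `own_down` for `G j = uu j b - uu j a` (`G n = 0`, `G j - G (j+1) = Av φ_j b - Av φ_j a`,
`|Av φ_j| ≤ Av ν_j`). -/
theorem step5 {μ : S → ℝ} {P : Matrix S S ℝ} (hP : IsChain μ P) (n : ℕ)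
    (φ ν : ℕ → S → ℝ) (hφ : ∀ ξ y, |φ ξ y| ≤ ν ξ y) (τ : ℕ) (j : ℕ) (hj : j ≤ n) (a b : S) :
    (uu P n φ τ j b - uu P n φ τ j a) ^ 2 ≤ XX P n φ ν τ a b := by
  sorry

end Vale.Agent.P125.Pol
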