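import Vale.Agent.P125.Pol.Basic

set_option linter.unusedSectionVars false
set_option linter.unusedVariables false

namespace Vale.Agent.P125.Pol

open scoped BigOperators
open Vale.Agent.P125.Dich Finset

variable {S : Type} [Fintype S] [DecidableEq S]

/-- Step 6: symmetry `a ↔ b` (reversibility) and self-adjointness of `Av` and `P^s`. -/
theorem step6 {μ : S → ℝ} {P : Matrix S S ℝ} (hP : IsChain μ P) (n : ℕ) (g : ℕ → S → ℝ)
    (φ : ℕ → S → ℝ) (τ s : ℕ) :
    ∑ a, ∑ b, μ a * P a b * XX P n φ (nu P g s) τ a b =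
      4 * ∑ j ∈ range n, av μ (fun z => w P g j z *
        ap (P ^ s) (Av P τ (gam P (uu P n φ τ j))) z) := by
  sorry

end Vale.Agent.P125.Pol
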