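import Vale.Agent.P125.Pol.Basic

set_option linter.unusedSectionVars false
set_option linter.unusedVariables false

/-! # P125 Pol: Step 7 (energy along the path of an almost harmonic function) -/

namespace Vale.Agent.P125.Pol

open scoped BigOperators
open Vale.Agent.P125.Dich Finset

variable {S : Type} [Fintype S] [DecidableEq S]

private theorem Gam_eq93 {μ : S → ℝ} {P : Matrix S S ℝ} (hP : IsChain μ P) (v : S → ℝ) (a : S) :
    Gam P v a = ap P (fun y => v y ^ 2) a - v a ^ 2 - 2 * (v a * (ap P v a - v a)) := by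
  obtain ⟨h1, h2, h3, h4, h5⟩ := hP
  unfold Gam ap
  have e : ∀ b, P a b * (v b - v a) ^ 2 =
      P a b * v b ^ 2 - 2 * v a * (P a b * v b) + v a ^ 2 * P a b := by
    intro b
    ring
  simp only [e, Finset.sum_add_distrib, Finset.sum_sub_distrib, ← Finset.mul_sum, h4 a]
  ring

/-- `Gam v = P v^2 - v^2 - 2 v (P v - v)`, telescoping. -/
theorem energy {μ : S → ℝ} {P : Matrix S S ℝ} (hP : IsChain μ P) (v Bv Bd : S → ℝ)
    (hv : ∀ y, |v y| ≤ Bv y) (hd : ∀ y, |ap P v y - v y| ≤ Bd y) (τ : ℕ) (x : S) :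
    ∑ i ∈ range τ, ap (P ^ i) (Gam P v) x ≤
      ap (P ^ τ) (fun y => Bv y ^ 2) x + 2 * ∑ i ∈ range τ, ap (P ^ i) (fun y => Bv y * Bd y) x := by
  have hn : ∀ i, ∀ a b, 0 ≤ (P ^ i) a b := fun i => (isChain_pow hP i).2.2.1
  have hpt : ∀ y, Gam P v y ≤
      (ap P (fun z => v z ^ 2) y - v y ^ 2) + 2 * (Bv y * Bd y) := by
    intro y
    rw [Gam_eq93 hP]
    have h1 : -(v y * (ap P v y - v y)) ≤ |v y| * |ap P v y - v y| := by
      rw [← abs_mul]
      exact neg_le_abs _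
    have h2 : |v y| * |ap P v y - v y| ≤ Bv y * Bd y :=
      mul_le_mul (hv y) (hd y) (abs_nonneg _) ((abs_nonneg _).trans (hv y))
    linarith
  have hstep : ∀ i, ap (P ^ i) (Gam P v) x ≤
      (ap (P ^ (i + 1)) (fun z => v z ^ 2) x - ap (P ^ i) (fun z => v z ^ 2) x)
        + 2 * ap (P ^ i) (fun y => Bv y * Bd y) x := by
    intro i
    refine (ap_mono (hn i) hpt x).trans (le_of_eq ?_)
    rw [ap_add, ap_sub, ap_smul, ap_pow_add, pow_one]
  refine (Finset.sum_le_sum fun i _ => hstep i).trans ?_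
  rw [Finset.sum_add_distrib, Finset.sum_range_sub (fun i => ap (P ^ i) (fun z => v z ^ 2) x),
    ← Finset.mul_sum, pow_zero, ap_one]
  have h3 : ap (P ^ τ) (fun z => v z ^ 2) x ≤ ap (P ^ τ) (fun y => Bv y ^ 2) x := by
    apply ap_mono (hn τ)
    intro y
    rw [← sq_abs (v y)]
    exact pow_le_pow_left₀ (abs_nonneg _) (hv y) 2
  have h4 : 0 ≤ v x ^ 2 := sq_nonneg _
  linarith

/-- `|Ph j| ≤ LL` when `|φ ξ| ≤ nu ξ` -/
theorem abs_Ph_le {μ : S → ℝ} {P : Matrix S S ℝ} (hP : IsChain μ P) (n : ℕ) (g : ℕ → S → ℝ)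
    (s : ℕ) (φ : ℕ → S → ℝ) (hφ : ∀ ξ y, |φ ξ y| ≤ nu P g s ξ y) (j : ℕ) (y : S) :
    |Ph n φ j y| ≤ LL P n g s y := by
  have hn : ∀ a b, 0 ≤ (P ^ s) a b := (isChain_pow hP s).2.2.1
  have hnu : ∀ ξ, 0 ≤ nu P g s ξ y := fun ξ => ap_nonneg hn (fun z => w_nonneg hP g ξ z) y
  have e : LL P n g s y = ∑ ξ ∈ range n, nu P g s ξ y := by
    unfold LL nu
    rw [← ap_sum]
    congr 1
    funext z
    exact (sum_w P n g z).symm
  rw [e]
  unfold Ph
  refine (Finset.abs_sum_le_sum_abs _ _).trans ?_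
  refine (Finset.sum_le_sum fun ξ _ => hφ ξ y).trans ?_
  apply Finset.sum_le_sum_of_subset_of_nonneg
  · intro ξ hξ
    exact Finset.mem_range.2 (Finset.mem_Ico.1 hξ).2
  · intro ξ _ _
    exact hnu ξ

/-- uniform (in `j`) bound of the energy of `uu j` along the path started `s` steps earlier -/
theorem energy_uu {μ : S → ℝ} {P : Matrix S S ℝ} (hP : IsChain μ P) (n : ℕ) (g : ℕ → S → ℝ)
    (τ s : ℕ) (φ : ℕ → S → ℝ) (hφ : ∀ ξ y, |φ ξ y| ≤ nu P g s ξ y) (j : ℕ) (z : S) :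
    ap (P ^ s) (fun x => ∑ i ∈ range τ, ap (P ^ i) (Gam P (uu P n φ τ j)) x) z ≤
      Eb P n g τ s z := by
  have hn : ∀ i, ∀ a b, 0 ≤ (P ^ i) a b := fun i => (isChain_pow hP i).2.2.1
  unfold Eb
  apply ap_mono (hn s)
  intro x
  have hF := abs_Ph_le hP n g s φ hφ j
  apply energy hP (uu P n φ τ j) (Av P τ (LL P n g s))
    (fun y => (1 / (τ : ℝ)) * (ap (P ^ τ) (LL P n g s) y + LL P n g s y))
  · intro y
    exact abs_Av_le hP τ hF y
  · intro y
    unfold uu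
    rw [ap_Av_sub, abs_mul, abs_of_nonneg (by positivity : (0 : ℝ) ≤ 1 / (τ : ℝ))]
    apply mul_le_mul_of_nonneg_left _ (by positivity)
    have h1 := abs_ap_le (hn τ) hF y
    have h2 := hF y
    have h3 := abs_sub (ap (P ^ τ) (Ph n φ j) y) (Ph n φ j y)
    linarith

end Vale.Agent.P125.Pol
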