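import Vale.Agent.P125.Pol.Basic

set_option linter.unusedSectionVars false
set_option linter.unusedVariables false

namespace Vale.Agent.P125.Pol

open scoped BigOperators
open Vale.Agent.P125.Dich Finset

variable {S : Type} [Fintype S] [DecidableEq S]

private lemma av_add' (μ : S → ℝ) (F G : S → ℝ) :
    av μ (fun x => F x + G x) = av μ F + av μ G := by
  unfold av
  rw [← Finset.sum_add_distrib]
  exact Finset.sum_congr rfl fun x _ => by ring

private lemma av_smul' (μ : S → ℝ) (c : ℝ) (F : S → ℝ) :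
    av μ (fun x => c * F x) = c * av μ F := by
  unfold av
  rw [Finset.mul_sum]
  exact Finset.sum_congr rfl fun x _ => by ring

private lemma av_sum' {ι : Type} (μ : S → ℝ) (t : Finset ι) (F : ι → S → ℝ) :
    av μ (fun x => ∑ i ∈ t, F i x) = ∑ i ∈ t, av μ (F i) := by
  unfold av
  simp_rw [Finset.mul_sum]
  rw [Finset.sum_comm]

private lemma av_sq_nonneg {μ : S → ℝ} (hμ : ∀ i, 0 ≤ μ i) (F : S → ℝ) :
    0 ≤ av μ (fun x => F x ^ 2) :=
  Finset.sum_nonneg fun x _ => mul_nonneg (hμ x) (sq_nonneg _)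

private lemma cs_le {μ : S → ℝ} (hμ : ∀ i, 0 ≤ μ i) (F G : S → ℝ) (E : ℝ)
    (hF : av μ (fun x => F x ^ 2) ≤ E) (hG : av μ (fun x => G x ^ 2) ≤ E) :
    av μ (fun x => F x * G x) ≤ E := by
  have h := av_mul_le hμ F G
  have hE : 0 ≤ E := le_trans (av_sq_nonneg hμ F) hF
  have h1 : Real.sqrt (av μ (fun x => F x ^ 2)) ≤ Real.sqrt E := Real.sqrt_le_sqrt hF
  have h2 : Real.sqrt (av μ (fun x => G x ^ 2)) ≤ Real.sqrt E := Real.sqrt_le_sqrt hG
  have h3 : Real.sqrt (av μ (fun x => F x ^ 2)) * Real.sqrt (av μ (fun x => G x ^ 2))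
      ≤ Real.sqrt E * Real.sqrt E :=
    mul_le_mul h1 h2 (Real.sqrt_nonneg _) (Real.sqrt_nonneg _)
  rw [Real.mul_self_sqrt hE] at h3
  linarith

/-- `∫ Eb ≤ 5 E1`: stationarity, `|Av L|_2 ≤ |L|_2 ≤ |lb|_2`, Cauchy-Schwarz. -/
theorem av_Eb_le {μ : S → ℝ} {P : Matrix S S ℝ} (hP : IsChain μ P) (n : ℕ) (g : ℕ → S → ℝ)
    (τ s : ℕ) (hτ : 1 ≤ τ) : av μ (Eb P n g τ s) ≤ 5 * E1 μ P n g := by
  have hμ : ∀ i, 0 ≤ μ i := hP.1
  set L : S → ℝ := LL P n g s with hL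
  set A : S → ℝ := Av P τ L with hA
  set E := E1 μ P n g with hE
  have hL2 : av μ (fun x => L x ^ 2) ≤ E :=
    le_trans (av_ap_sq_le hP s (lb P n g)) (av_lb_sq_le hP n g)
  have hA2 : av μ (fun x => A x ^ 2) ≤ E := le_trans (av_Av_sq_le hP τ L) hL2
  have hPL2 : av μ (fun x => ap (P ^ τ) L x ^ 2) ≤ E := le_trans (av_ap_sq_le hP τ L) hL2
  have c1 : av μ (fun x => A x * ap (P ^ τ) L x) ≤ E := cs_le hμ _ _ E hA2 hPL2
  have c2 : av μ (fun x => A x * L x) ≤ E := cs_le hμ _ _ E hA2 hL2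
  have hτ0 : (τ : ℝ) ≠ 0 := by
    have : (1 : ℝ) ≤ (τ : ℝ) := by exact_mod_cast hτ
    linarith
  have key : av μ (Eb P n g τ s) = av μ (fun x => A x ^ 2)
      + 2 * (av μ (fun x => A x * ap (P ^ τ) L x) + av μ (fun x => A x * L x)) := by
    unfold Eb
    rw [av_ap hP s, av_add', av_ap hP τ, av_smul', av_sum']
    have hi : ∀ i ∈ range τ, av μ (ap (P ^ i) (fun y => Av P τ (LL P n g s) y *
        ((1 / (τ : ℝ)) * (ap (P ^ τ) (LL P n g s) y + LL P n g s y))))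
        = (1 / (τ : ℝ)) * (av μ (fun x => A x * ap (P ^ τ) L x) + av μ (fun x => A x * L x)) := by
      intro i _
      rw [av_ap hP i, ← av_add', ← av_smul']
      unfold av
      exact Finset.sum_congr rfl fun x _ => by ring
    rw [Finset.sum_congr rfl hi, Finset.sum_const, Finset.card_range, nsmul_eq_mul]
    field_simp
    rfl
  rw [key]
  linarith

lemma Eb_nonneg {μ : S → ℝ} {P : Matrix S S ℝ} (hP : IsChain μ P) (n : ℕ) (g : ℕ → S → ℝ)
    (τ s : ℕ) (z : S) : 0 ≤ Eb P n g τ s z := by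
  have hpow : ∀ k : ℕ, ∀ i j, 0 ≤ (P ^ k) i j := fun k => (isChain_pow hP k).2.2.1
  have hL : ∀ y, 0 ≤ LL P n g s y := fun y => ap_nonneg (hpow s) (fun x => lb_nonneg hP n g x) y
  have hA : ∀ y, 0 ≤ Av P τ (LL P n g s) y := by
    intro y
    have h := Av_mono hP τ (F := fun _ => 0) (G := LL P n g s) hL y
    rwa [Av_zero] at h
  unfold Eb
  refine ap_nonneg (hpow s) (fun x => ?_) z
  refine add_nonneg (ap_nonneg (hpow τ) (fun y => sq_nonneg _) x) ?_
  refine mul_nonneg (by norm_num) (Finset.sum_nonneg fun i _ => ap_nonneg (hpow i) (fun y => ?_) x)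
  refine mul_nonneg (hA y) (mul_nonneg (by positivity) (add_nonneg (ap_nonneg (hpow τ) hL y) (hL y)))

end Vale.Agent.P125.Pol
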