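import Vale.Agent.P125.Pol.PathVar
import Vale.Agent.P125.Pol.S5
import Vale.Agent.P125.Pol.S6
import Vale.Agent.P125.Pol.S7
import Vale.Agent.P125.Pol.S7b

set_option linter.unusedSectionVars false
set_option linter.unusedVariables false

namespace Vale.Agent.P125.Pol

open scoped BigOperators
open Vale.Agent.P125.Dich Finset

variable {S : Type} [Fintype S] [DecidableEq S]

/-- Steps 6-7 assembled: `step6`, `path_var`, `energy_uu`, `sum_w`, `av_mul_le`, `av_lb_sq_le`,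
`av_Eb_le`. -/
theorem asm67 {μ : S → ℝ} {P : Matrix S S ℝ} (hP : IsChain μ P) (n : ℕ) (g : ℕ → S → ℝ)
    (τ s : ℕ) (hτ : 1 ≤ τ) (φ : ℕ → S → ℝ) (hφ : ∀ ξ y, |φ ξ y| ≤ nu P g s ξ y) :
    ∑ a, ∑ b, μ a * P a b * XX P n φ (nu P g s) τ a b ≤
      4 * Real.sqrt 5 * E1 μ P n g / Real.sqrt τ := by
  rw [step6 hP n g φ τ s]
  have h1 : ∀ i, 0 ≤ μ i := hP.1
  have hτ0 : (0 : ℝ) < τ := by exact_mod_cast hτ
  have hE : 0 ≤ E1 μ P n g := E1_nonneg hP n g
  set B : S → ℝ := fun z => Real.sqrt ((1 / (τ : ℝ)) * Eb P n g τ s z) with hB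
  have key : ∀ j z, ap (P ^ s) (Av P τ (gam P (uu P n φ τ j))) z ≤ B z := by
    intro j z
    refine (path_var hP _ τ s hτ z).trans (Real.sqrt_le_sqrt ?_)
    exact mul_le_mul_of_nonneg_left (energy_uu hP n g τ s φ hφ j z) (by positivity)
  have h2 : ∑ j ∈ range n, av μ (fun z => w P g j z *
        ap (P ^ s) (Av P τ (gam P (uu P n φ τ j))) z)
      ≤ ∑ j ∈ range n, av μ (fun z => w P g j z * B z) :=
    sum_le_sum fun j _ => av_mono h1 fun z =>
      mul_le_mul_of_nonneg_left (key j z) (w_nonneg hP g j z)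
  have h3 : ∑ j ∈ range n, av μ (fun z => w P g j z * B z) = av μ (fun z => lb P n g z * B z) := by
    unfold av
    rw [sum_comm]
    refine sum_congr rfl fun z _ => ?_
    simp only
    rw [← sum_w, sum_mul, mul_sum]
  have h4 := av_mul_le h1 (lb P n g) B
  have h5 : av μ (fun z => B z ^ 2) ≤ (1 / (τ : ℝ)) * (5 * E1 μ P n g) := by
    have e : av μ (fun z => B z ^ 2) = (1 / (τ : ℝ)) * av μ (Eb P n g τ s) := by
      unfold av
      rw [mul_sum]
      refine sum_congr rfl fun z _ => ?_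
      rw [hB]
      simp only
      rw [Real.sq_sqrt (mul_nonneg (by positivity) (Eb_nonneg hP n g τ s z))]
      ring
    rw [e]
    exact mul_le_mul_of_nonneg_left (av_Eb_le hP n g τ s hτ) (by positivity)
  have h6 : Real.sqrt (av μ (fun z => lb P n g z ^ 2)) ≤ Real.sqrt (E1 μ P n g) :=
    Real.sqrt_le_sqrt (av_lb_sq_le hP n g)
  have h7 : Real.sqrt (av μ (fun z => B z ^ 2)) ≤ Real.sqrt ((1 / (τ : ℝ)) * (5 * E1 μ P n g)) :=
    Real.sqrt_le_sqrt h5
  have h8 : Real.sqrt (E1 μ P n g) * Real.sqrt ((1 / (τ : ℝ)) * (5 * E1 μ P n g))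
      = Real.sqrt 5 * E1 μ P n g / Real.sqrt τ := by
    rw [Real.sqrt_mul (by positivity), Real.sqrt_mul (by norm_num), one_div,
      Real.sqrt_inv]
    have := Real.mul_self_sqrt hE
    field_simp
    nlinarith [this]
  have h9 : av μ (fun z => lb P n g z * B z) ≤ Real.sqrt 5 * E1 μ P n g / Real.sqrt τ := by
    rw [← h8]
    exact h4.trans (mul_le_mul h6 h7 (Real.sqrt_nonneg _) (Real.sqrt_nonneg _))
  calc 4 * ∑ j ∈ range n, av μ (fun z => w P g j z *
        ap (P ^ s) (Av P τ (gam P (uu P n φ τ j))) z)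
      ≤ 4 * (Real.sqrt 5 * E1 μ P n g / Real.sqrt τ) := by
        have := h2.trans (h3.le.trans h9)
        linarith
    _ = 4 * Real.sqrt 5 * E1 μ P n g / Real.sqrt τ := by ring

end Vale.Agent.P125.Pol
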