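import Vale.Agent.P125.Pol.Defs

set_option linter.unusedSectionVars false
set_option linter.unusedVariables false

/-! # P125 Pol: basic facts (ap) -/

namespace Vale.Agent.P125.Pol

open scoped BigOperators
open Vale.Agent.P125.Dich Finset

variable {S : Type} [Fintype S] [DecidableEq S]

lemma ap_one (F : S → ℝ) : ap (1 : Matrix S S ℝ) F = F := by
  funext x
  simp [ap, Matrix.one_apply]

lemma ap_mul (A B : Matrix S S ℝ) (F : S → ℝ) : ap (A * B) F = ap A (ap B F) := by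
  funext x
  simp only [ap, Matrix.mul_apply, Finset.sum_mul, Finset.mul_sum]
  rw [Finset.sum_comm]
  refine Finset.sum_congr rfl fun j _ => Finset.sum_congr rfl fun y _ => ?_
  ring

lemma ap_pow_add (P : Matrix S S ℝ) (a b : ℕ) (F : S → ℝ) :
    ap (P ^ (a + b)) F = ap (P ^ a) (ap (P ^ b) F) := by
  rw [pow_add, ap_mul]

lemma ap_add (A : Matrix S S ℝ) (F G : S → ℝ) (x : S) :
    ap A (fun y => F y + G y) x = ap A F x + ap A G x := by
  simp only [ap, mul_add, Finset.sum_add_distrib]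

lemma ap_sub (A : Matrix S S ℝ) (F G : S → ℝ) (x : S) :
    ap A (fun y => F y - G y) x = ap A F x - ap A G x := by
  simp only [ap, mul_sub, Finset.sum_sub_distrib]

lemma ap_smul (A : Matrix S S ℝ) (c : ℝ) (F : S → ℝ) (x : S) :
    ap A (fun y => c * F y) x = c * ap A F x := by
  simp only [ap, Finset.mul_sum]
  refine Finset.sum_congr rfl fun y _ => ?_
  ring

lemma ap_sum {ι : Type*} (A : Matrix S S ℝ) (s : Finset ι) (F : ι → S → ℝ) (x : S) :
    ap A (fun y => ∑ i ∈ s, F i y) x = ∑ i ∈ s, ap A (F i) x := by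
  simp only [ap, Finset.mul_sum]
  rw [Finset.sum_comm]

lemma ap_mono {A : Matrix S S ℝ} (hA : ∀ i j, 0 ≤ A i j) {F G : S → ℝ} (h : ∀ y, F y ≤ G y)
    (x : S) : ap A F x ≤ ap A G x := by
  exact Finset.sum_le_sum fun y _ => mul_le_mul_of_nonneg_left (h y) (hA x y)

lemma ap_nonneg {A : Matrix S S ℝ} (hA : ∀ i j, 0 ≤ A i j) {F : S → ℝ} (h : ∀ y, 0 ≤ F y)
    (x : S) : 0 ≤ ap A F x := by
  exact Finset.sum_nonneg fun y _ => mul_nonneg (hA x y) (h y)

lemma ap_const {A : Matrix S S ℝ} (hA : ∀ i, ∑ j, A i j = 1) (c : ℝ) (x : S) :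
    ap A (fun _ => c) x = c := by
  simp only [ap]
  rw [← Finset.sum_mul, hA x, one_mul]

lemma abs_ap_le {A : Matrix S S ℝ} (hA : ∀ i j, 0 ≤ A i j) {F G : S → ℝ} (h : ∀ y, |F y| ≤ G y)
    (x : S) : |ap A F x| ≤ ap A G x := by
  refine (Finset.abs_sum_le_sum_abs _ _).trans (Finset.sum_le_sum fun y _ => ?_)
  rw [abs_mul, abs_of_nonneg (hA x y)]
  exact mul_le_mul_of_nonneg_left (h y) (hA x y)

/-- Jensen for the square -/
lemma ap_sq_le {A : Matrix S S ℝ} (hA : ∀ i j, 0 ≤ A i j) (hA1 : ∀ i, ∑ j, A i j = 1)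
    (F : S → ℝ) (x : S) : ap A F x ^ 2 ≤ ap A (fun y => F y ^ 2) x := by
  have h0 : 0 ≤ ∑ y, A x y * (F y - ap A F x) ^ 2 :=
    Finset.sum_nonneg fun y _ => mul_nonneg (hA x y) (sq_nonneg _)
  have e : ∑ y, A x y * (F y - ap A F x) ^ 2 =
      ap A (fun y => F y ^ 2) x - 2 * ap A F x * ap A F x + ap A F x ^ 2 * ∑ y, A x y := by
    calc ∑ y, A x y * (F y - ap A F x) ^ 2
        = ∑ y, (A x y * F y ^ 2 - 2 * ap A F x * (A x y * F y) + ap A F x ^ 2 * A x y) :=
          Finset.sum_congr rfl fun y _ => by ring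
      _ = _ := by
          rw [Finset.sum_add_distrib, Finset.sum_sub_distrib, ← Finset.mul_sum, ← Finset.mul_sum]
          rfl
  rw [e, hA1 x] at h0
  nlinarith [h0]

/-- Jensen for the square root -/
lemma ap_sqrt_le {A : Matrix S S ℝ} (hA : ∀ i j, 0 ≤ A i j) (hA1 : ∀ i, ∑ j, A i j = 1)
    {F : S → ℝ} (hF : ∀ y, 0 ≤ F y) (x : S) :
    ap A (fun y => Real.sqrt (F y)) x ≤ Real.sqrt (ap A F x) := by
  have h0 : 0 ≤ ap A (fun y => Real.sqrt (F y)) x :=
    ap_nonneg hA (fun y => Real.sqrt_nonneg _) x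
  have h1 : ap A (fun y => Real.sqrt (F y)) x ^ 2 ≤ ap A F x := by
    refine (ap_sq_le hA hA1 (fun y => Real.sqrt (F y)) x).trans (le_of_eq ?_)
    simp only [ap]
    refine Finset.sum_congr rfl fun y _ => ?_
    rw [Real.sq_sqrt (hF y)]
  calc ap A (fun y => Real.sqrt (F y)) x
      = Real.sqrt (ap A (fun y => Real.sqrt (F y)) x ^ 2) := (Real.sqrt_sq h0).symm
    _ ≤ Real.sqrt (ap A F x) := Real.sqrt_le_sqrt h1

end Vale.Agent.P125.Pol
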