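import Vale.Agent.P125.Pol.BasicA

set_option linter.unusedSectionVars false
set_option linter.unusedVariables false

/-! # P125 Pol: basic facts (av) -/

namespace Vale.Agent.P125.Pol

open scoped BigOperators
open Vale.Agent.P125.Dich Finset

variable {S : Type} [Fintype S] [DecidableEq S]

/-- stationarity -/
lemma av_ap {μ : S → ℝ} {P : Matrix S S ℝ} (hP : IsChain μ P) (k : ℕ) (F : S → ℝ) :
    av μ (ap (P ^ k) F) = av μ F := by
  sorry

/-- self-adjointness -/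
lemma av_mul_ap {μ : S → ℝ} {P : Matrix S S ℝ} (hP : IsChain μ P) (k : ℕ) (F G : S → ℝ) :
    av μ (fun x => F x * ap (P ^ k) G x) = av μ (fun x => ap (P ^ k) F x * G x) := by
  sorry

/-- `L_2` contraction -/
lemma av_ap_sq_le {μ : S → ℝ} {P : Matrix S S ℝ} (hP : IsChain μ P) (k : ℕ) (F : S → ℝ) :
    av μ (fun x => ap (P ^ k) F x ^ 2) ≤ av μ (fun x => F x ^ 2) := by
  sorry

/-- Cauchy-Schwarz for `av` -/
lemma av_mul_le {μ : S → ℝ} (hμ : ∀ i, 0 ≤ μ i) (F G : S → ℝ) :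
    av μ (fun x => F x * G x) ≤
      Real.sqrt (av μ (fun x => F x ^ 2)) * Real.sqrt (av μ (fun x => G x ^ 2)) := by
  sorry

lemma av_mono {μ : S → ℝ} (hμ : ∀ i, 0 ≤ μ i) {F G : S → ℝ} (h : ∀ x, F x ≤ G x) :
    av μ F ≤ av μ G := by
  sorry

end Vale.Agent.P125.Pol
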