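import Vale.Agent.P125.Pol.BasicB

set_option linter.unusedSectionVars false
set_option linter.unusedVariables false

/-! # P125 Pol: basic facts (w, lb, el, E1) -/

namespace Vale.Agent.P125.Pol

open scoped BigOperators
open Vale.Agent.P125.Dich Finset

variable {S : Type} [Fintype S] [DecidableEq S]

lemma sum_w (P : Matrix S S ℝ) (n : ℕ) (g : ℕ → S → ℝ) (z : S) :
    ∑ j ∈ range n, w P g j z = lb P n g z := by
  unfold w lb el
  rw [Finset.sum_comm]
  refine Finset.sum_congr rfl fun b _ => ?_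
  rw [Finset.mul_sum]

lemma w_nonneg {μ : S → ℝ} {P : Matrix S S ℝ} (hP : IsChain μ P) (g : ℕ → S → ℝ) (j : ℕ) (z : S) :
    0 ≤ w P g j z := by
  unfold w
  exact Finset.sum_nonneg fun b _ => mul_nonneg (hP.2.2.1 z b) (abs_nonneg _)

lemma el_nonneg (n : ℕ) (g : ℕ → S → ℝ) (a b : S) : 0 ≤ el n g a b := by
  unfold el
  exact Finset.sum_nonneg fun j _ => abs_nonneg _

lemma lb_nonneg {μ : S → ℝ} {P : Matrix S S ℝ} (hP : IsChain μ P) (n : ℕ) (g : ℕ → S → ℝ) (z : S) :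
    0 ≤ lb P n g z := by
  unfold lb
  exact Finset.sum_nonneg fun b _ => mul_nonneg (hP.2.2.1 z b) (el_nonneg n g z b)

lemma E1_nonneg {μ : S → ℝ} {P : Matrix S S ℝ} (hP : IsChain μ P) (n : ℕ) (g : ℕ → S → ℝ) :
    0 ≤ E1 μ P n g := by
  unfold E1
  exact Finset.sum_nonneg fun a _ => Finset.sum_nonneg fun b _ =>
    mul_nonneg (mul_nonneg (hP.1 a) (hP.2.2.1 a b)) (sq_nonneg _)

lemma abs_H_sub_le (n : ℕ) (g : ℕ → S → ℝ) {j : ℕ} (hj : j < n) (a b : S) :
    |H g j b - H g j a| ≤ el n g a b := by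
  unfold H el
  rw [← Finset.sum_sub_distrib]
  refine (Finset.abs_sum_le_sum_abs _ _).trans ?_
  refine Finset.sum_le_sum_of_subset_of_nonneg ?_ (fun i _ _ => abs_nonneg _)
  intro i hi
  rw [Finset.mem_range] at hi ⊢
  omega

/-- `|lb|_2^2 ≤ E1` -/
lemma av_lb_sq_le {μ : S → ℝ} {P : Matrix S S ℝ} (hP : IsChain μ P) (n : ℕ) (g : ℕ → S → ℝ) :
    av μ (fun z => lb P n g z ^ 2) ≤ E1 μ P n g := by
  unfold av E1
  refine Finset.sum_le_sum fun a _ => ?_
  have h := ap_sq_le hP.2.2.1 hP.2.2.2.1 (fun b => el n g a b) a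
  have h2 : lb P n g a ^ 2 ≤ ∑ b, P a b * el n g a b ^ 2 := h
  calc μ a * lb P n g a ^ 2 ≤ μ a * ∑ b, P a b * el n g a b ^ 2 :=
        mul_le_mul_of_nonneg_left h2 (hP.1 a)
    _ = ∑ b, μ a * P a b * el n g a b ^ 2 := by
        rw [Finset.mul_sum]
        refine Finset.sum_congr rfl fun b _ => by ring

end Vale.Agent.P125.Pol
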