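import Vale.Agent.P125.Pol.BasicB

set_option linter.unusedSectionVars false
set_option linter.unusedVariables false

/-! # P125 Pol: basic facts (Av, Dirichlet form) -/

namespace Vale.Agent.P125.Pol

open scoped BigOperators
open Vale.Agent.P125.Dich Finset

variable {S : Type} [Fintype S] [DecidableEq S]

/-- `Av` is a positive contraction commuting with everything -/
lemma Av_mono {μ : S → ℝ} {P : Matrix S S ℝ} (hP : IsChain μ P) (τ : ℕ) {F G : S → ℝ}
    (h : ∀ y, F y ≤ G y) (x : S) : Av P τ F x ≤ Av P τ G x := by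
  unfold Av
  refine mul_le_mul_of_nonneg_left ?_ (by positivity)
  exact Finset.sum_le_sum fun i _ => ap_mono (isChain_pow hP i).2.2.1 h x

lemma abs_Av_le {μ : S → ℝ} {P : Matrix S S ℝ} (hP : IsChain μ P) (τ : ℕ) {F G : S → ℝ}
    (h : ∀ y, |F y| ≤ G y) (x : S) : |Av P τ F x| ≤ Av P τ G x := by
  unfold Av
  rw [abs_mul, abs_of_nonneg (by positivity : (0 : ℝ) ≤ 1 / (τ : ℝ))]
  refine mul_le_mul_of_nonneg_left ?_ (by positivity)
  exact (Finset.abs_sum_le_sum_abs _ _).trans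
    (Finset.sum_le_sum fun i _ => abs_ap_le (isChain_pow hP i).2.2.1 h x)

lemma Av_add (P : Matrix S S ℝ) (τ : ℕ) (F G : S → ℝ) (x : S) :
    Av P τ (fun y => F y + G y) x = Av P τ F x + Av P τ G x := by
  unfold Av
  simp only [ap_add]
  rw [Finset.sum_add_distrib, mul_add]

lemma Av_zero (P : Matrix S S ℝ) (τ : ℕ) (x : S) : Av P τ (fun _ => 0) x = 0 := by
  unfold Av ap
  simp

private lemma av_mul_Av_aux (μ : S → ℝ) (P : Matrix S S ℝ) (τ : ℕ) (F G : S → ℝ) :
    av μ (fun x => F x * Av P τ G x)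
      = (1 / (τ : ℝ)) * ∑ i ∈ range τ, av μ (fun x => F x * ap (P ^ i) G x) := by
  unfold av Av
  rw [Finset.sum_comm, Finset.mul_sum]
  refine Finset.sum_congr rfl fun x _ => ?_
  beta_reduce
  rw [Finset.mul_sum, Finset.mul_sum, Finset.mul_sum, Finset.mul_sum]
  refine Finset.sum_congr rfl fun i _ => ?_
  ring

private lemma av_Av_mul_aux (μ : S → ℝ) (P : Matrix S S ℝ) (τ : ℕ) (F G : S → ℝ) :
    av μ (fun x => Av P τ F x * G x)
      = (1 / (τ : ℝ)) * ∑ i ∈ range τ, av μ (fun x => ap (P ^ i) F x * G x) := by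
  have h1 : (fun x => Av P τ F x * G x) = fun x => G x * Av P τ F x := by
    funext x
    ring
  have h2 : ∀ i, (fun x => ap (P ^ i) F x * G x) = fun x => G x * ap (P ^ i) F x := by
    intro i
    funext x
    ring
  rw [h1, av_mul_Av_aux]
  simp only [h2]

lemma av_mul_Av {μ : S → ℝ} {P : Matrix S S ℝ} (hP : IsChain μ P) (τ : ℕ) (F G : S → ℝ) :
    av μ (fun x => F x * Av P τ G x) = av μ (fun x => Av P τ F x * G x) := by
  rw [av_mul_Av_aux, av_Av_mul_aux]
  congr 1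
  exact Finset.sum_congr rfl fun i _ => av_mul_ap hP i F G

lemma av_Av_sq_le {μ : S → ℝ} {P : Matrix S S ℝ} (hP : IsChain μ P) (τ : ℕ) (F : S → ℝ) :
    av μ (fun x => Av P τ F x ^ 2) ≤ av μ (fun x => F x ^ 2) := by
  have hμ : ∀ i, 0 ≤ μ i := hP.1
  rcases Nat.eq_zero_or_pos τ with h0 | hpos
  · subst h0
    have hz : ∀ x, Av P 0 F x ^ 2 ≤ F x ^ 2 := by
      intro x
      unfold Av
      simp
      exact sq_nonneg _
    exact av_mono hμ hz
  · have hτ : (0 : ℝ) < (τ : ℝ) := by exact_mod_cast hpos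
    have hpt : ∀ x, Av P τ F x ^ 2
        ≤ (1 / (τ : ℝ)) * ∑ i ∈ range τ, ap (P ^ i) F x ^ 2 := by
      intro x
      unfold Av
      have hcs := sq_sum_le_card_mul_sum_sq (s := range τ) (f := fun i => ap (P ^ i) F x)
      rw [Finset.card_range] at hcs
      rw [mul_pow]
      have h1 : (1 / (τ : ℝ)) ^ 2 * (∑ i ∈ range τ, ap (P ^ i) F x) ^ 2
          ≤ (1 / (τ : ℝ)) ^ 2 * ((τ : ℝ) * ∑ i ∈ range τ, ap (P ^ i) F x ^ 2) :=
        mul_le_mul_of_nonneg_left hcs (by positivity)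
      have h2 : (1 / (τ : ℝ)) ^ 2 * ((τ : ℝ) * ∑ i ∈ range τ, ap (P ^ i) F x ^ 2)
          = (1 / (τ : ℝ)) * ∑ i ∈ range τ, ap (P ^ i) F x ^ 2 := by
        field_simp
      linarith
    have h3 : av μ (fun x => (1 / (τ : ℝ)) * ∑ i ∈ range τ, ap (P ^ i) F x ^ 2)
        = (1 / (τ : ℝ)) * ∑ i ∈ range τ, av μ (fun x => ap (P ^ i) F x ^ 2) := by
      unfold av
      rw [Finset.sum_comm, Finset.mul_sum]
      refine Finset.sum_congr rfl fun x _ => ?_
      beta_reduce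
      rw [Finset.mul_sum, Finset.mul_sum, Finset.mul_sum]
      refine Finset.sum_congr rfl fun i _ => ?_
      ring
    have h4 : ∑ i ∈ range τ, av μ (fun x => ap (P ^ i) F x ^ 2)
        ≤ ∑ i ∈ range τ, av μ (fun x => F x ^ 2) :=
      Finset.sum_le_sum fun i _ => av_ap_sq_le hP i F
    rw [Finset.sum_const, Finset.card_range, nsmul_eq_mul] at h4
    calc av μ (fun x => Av P τ F x ^ 2)
        ≤ av μ (fun x => (1 / (τ : ℝ)) * ∑ i ∈ range τ, ap (P ^ i) F x ^ 2) := av_mono hμ hpt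
      _ = (1 / (τ : ℝ)) * ∑ i ∈ range τ, av μ (fun x => ap (P ^ i) F x ^ 2) := h3
      _ ≤ (1 / (τ : ℝ)) * ((τ : ℝ) * av μ (fun x => F x ^ 2)) :=
          mul_le_mul_of_nonneg_left h4 (by positivity)
      _ = av μ (fun x => F x ^ 2) := by
          field_simp

/-- `P (A_τ F) - A_τ F = (P^τ F - F)/τ` -/
lemma ap_Av_sub (P : Matrix S S ℝ) (τ : ℕ) (F : S → ℝ) (x : S) :
    ap P (Av P τ F) x - Av P τ F x = (1 / (τ : ℝ)) * (ap (P ^ τ) F x - F x) := by
  have h1 : ap P (Av P τ F) x = (1 / (τ : ℝ)) * ∑ i ∈ range τ, ap (P ^ (i + 1)) F x := by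
    have e : Av P τ F = fun y => (1 / (τ : ℝ)) * ∑ i ∈ range τ, ap (P ^ i) F y := rfl
    rw [e, ap_smul, ap_sum]
    congr 1
    refine Finset.sum_congr rfl fun i _ => ?_
    have e2 : P ^ (i + 1) = P ^ (1 + i) := by rw [add_comm]
    rw [e2, ap_pow_add, pow_one]
  have h2 : Av P τ F x = (1 / (τ : ℝ)) * ∑ i ∈ range τ, ap (P ^ i) F x := rfl
  rw [h1, h2, ← mul_sub, ← Finset.sum_sub_distrib,
    Finset.sum_range_sub (fun i => ap (P ^ i) F x) τ, pow_zero, ap_one]

/-- Dirichlet form -/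
lemma dirichlet {μ : S → ℝ} {P : Matrix S S ℝ} (hP : IsChain μ P) (U G : S → ℝ) :
    av μ (fun x => (ap P U x - U x) * G x) =
      -(1 / 2) * ∑ a, ∑ b, μ a * P a b * ((U b - U a) * (G b - G a)) := by
  obtain ⟨h1, h2, h3, h4, h5⟩ := hP
  have e1 : av μ (fun x => (ap P U x - U x) * G x)
      = ∑ a, ∑ b, μ a * P a b * ((U b - U a) * G a) := by
    unfold av ap
    refine Finset.sum_congr rfl fun a _ => ?_
    beta_reduce
    have : ∑ b, P a b * U b - U a = ∑ b, P a b * (U b - U a) := by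
      simp only [mul_sub]
      rw [Finset.sum_sub_distrib, ← Finset.sum_mul, h4 a, one_mul]
    rw [this, Finset.sum_mul, Finset.mul_sum]
    refine Finset.sum_congr rfl fun b _ => ?_
    ring
  have e2 : ∑ a, ∑ b, μ a * P a b * ((U b - U a) * G a)
      = ∑ a, ∑ b, μ a * P a b * ((U a - U b) * G b) := by
    rw [Finset.sum_comm]
    refine Finset.sum_congr rfl fun a _ => Finset.sum_congr rfl fun b _ => ?_
    rw [h5 b a]
  have e3 : ∑ a, ∑ b, μ a * P a b * ((U b - U a) * (G b - G a))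
      = -(∑ a, ∑ b, μ a * P a b * ((U a - U b) * G b))
        - ∑ a, ∑ b, μ a * P a b * ((U b - U a) * G a) := by
    rw [← Finset.sum_neg_distrib, ← Finset.sum_sub_distrib]
    refine Finset.sum_congr rfl fun a _ => ?_
    rw [← Finset.sum_neg_distrib, ← Finset.sum_sub_distrib]
    refine Finset.sum_congr rfl fun b _ => ?_
    ring
  rw [e1, e3, ← e2]
  ring

end Vale.Agent.P125.Pol
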