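import Vale.Agent.P125.Pol.Defs
import Vale.Agent.P125.Pol.Seq
import Vale.Agent.P125.H34.Main
import Vale.Agent.P125.Alpha.AllT

set_option linter.unusedSectionVars false
set_option linter.unusedVariables false

namespace Vale.Agent.P125.Pol

open scoped BigOperators
open Vale.Agent.P125.Dich Finset

variable {S : Type} [Fintype S] [DecidableEq S]

/-- coordinates of `f` -/
def gf {n : ℕ} (f : S → Fin n → ℝ) (j : ℕ) (z : S) : ℝ := H34.ext (f z) j

private lemma ext_sub69 {n : ℕ} (u v : Fin n → ℝ) (i : ℕ) :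
    H34.ext (u - v) i = H34.ext u i - H34.ext v i := by
  rw [sub_eq_add_neg, H34.ext_add, H34.ext_neg]
  ring

private lemma pre_sub69 {n : ℕ} (u v : Fin n → ℝ) (k : ℕ) :
    H34.pre (u - v) k = H34.pre u k - H34.pre v k := by
  rw [sub_eq_add_neg, H34.pre_add, H34.pre_neg]
  ring

private lemma el_gf69 {n : ℕ} (f : S → Fin n → ℝ) (a b : S) :
    el n (gf f) a b = H34.n1 n (f b - f a) := by
  rw [← H34.sum_abs_ext]
  unfold el gf
  refine Finset.sum_congr rfl fun j _ => ?_
  rw [ext_sub69]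

private lemma H_gf69 {n : ℕ} (f : S → Fin n → ℝ) (j : ℕ) (x y : S) :
    H (gf f) j y - H (gf f) j x = H34.pre (f y - f x) (j + 1) := by
  rw [pre_sub69]
  rfl

private lemma nJ_add69 {n : ℕ} (u v : Fin n → ℝ) :
    H34.nJ n (u + v) ≤ H34.nJ n u + H34.nJ n v := by
  obtain ⟨k, hk, he⟩ := H34.exists_nJ (u + v)
  rw [← he, H34.pre_add]
  exact (abs_add_le _ _).trans (add_le_add (H34.abs_pre_le_nJ u hk) (H34.abs_pre_le_nJ v hk))

lemma E1_gf {μ : S → ℝ} {P : Matrix S S ℝ} {n : ℕ} (f : S → Fin n → ℝ) :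
    E1 μ P n (gf f) = ∑ i, ∑ j, μ i * P i j * H34.n1 n (f j - f i) ^ 2 := by
  unfold E1
  refine Finset.sum_congr rfl fun a _ => Finset.sum_congr rfl fun b _ => ?_
  rw [el_gf69]

/-- the `J` distance of `f` satisfies the abstract axioms (`own` by `own_up` for `G k = pre v k`,
`triv` by `Alpha.AllT.bd_mul` with `a = 1`, `α = 1` and `En_one_le`; `r = 0` directly). -/
theorem jd_gf {μ : S → ℝ} {P : Matrix S S ℝ} (hP : IsChain μ P) {n : ℕ} (f : S → Fin n → ℝ) :
    JD μ P n (gf f) (fun x y => H34.nJ n (f y - f x)) := by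
  refine ⟨fun x y => H34.nJ_nonneg _, ?_, ?_, ?_⟩
  · intro j hj x y
    rw [H_gf69]
    exact H34.abs_pre_le_nJ _ hj
  · intro x y
    obtain ⟨k, hk, he⟩ := H34.exists_nJ (f y - f x)
    have h := own_up (fun k => H34.pre (f y - f x) k) (by simp [H34.pre]) n k hk
    beta_reduce at h
    rw [← he, sq_abs]
    refine h.trans (le_of_eq ?_)
    congr 1
    refine Finset.sum_congr rfl fun j _ => ?_
    rw [H_gf69, H34.pre_succ_sub, ext_sub69]
    rfl
  · intro r
    have hW : E1 μ P n (gf f) = Alpha.AllT.En μ P (H34.n1 n) f 1 := by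
      rw [E1_gf]
      unfold Alpha.AllT.En
      rw [pow_one]
    have hE : ∑ x, ∑ y, μ x * (P ^ r) x y * H34.nJ n (f y - f x) ^ 2
        = Alpha.AllT.En μ P (H34.nJ n) f r := rfl
    rw [hE, hW]
    rcases Nat.eq_zero_or_pos r with h0 | hpos
    · subst h0
      have hz : Alpha.AllT.En μ P (H34.nJ n) f 0 = 0 := by
        unfold Alpha.AllT.En
        refine Finset.sum_eq_zero fun i _ => Finset.sum_eq_zero fun j _ => ?_
        rw [pow_zero]
        by_cases hij : i = j
        · subst hij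
          have h00 : H34.nJ n (f i - f i) = 0 := by
            rw [sub_self]
            obtain ⟨k, _, he⟩ := H34.exists_nJ (0 : Fin n → ℝ)
            rw [← he, H34.pre_zero, abs_zero]
          rw [h00]
          ring
        · rw [Matrix.one_apply_ne hij]
          ring
      rw [hz]
      simp
    · obtain ⟨q, rfl⟩ : ∃ q, r = q + 1 := ⟨r - 1, by omega⟩
      have hone : Alpha.AllT.En μ P (H34.nJ n) f 1
          ≤ (1 : ℝ) ^ 2 * Alpha.AllT.En μ P (H34.n1 n) f 1 := by
        rw [one_pow, one_mul]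
        exact Alpha.AllT.En_one_le hP (H34.nJ n) (H34.n1 n) (fun x => H34.nJ_nonneg x)
          (fun x => H34.nJ_le_n1 x) f 1
      have hB := Alpha.AllT.bd_mul hP (H34.nJ n) (fun x => H34.nJ_nonneg x) nJ_add69 f
        (Alpha.AllT.En μ P (H34.n1 n) f 1) 1 1 one_pos hone q
      rw [mul_one, mul_one] at hB
      have e : (((q + 1 : ℕ) : ℝ)) = (q : ℝ) + 1 := by push_cast; ring
      rw [e]
      exact hB

end Vale.Agent.P125.Pol
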