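import Vale.Agent.P125.Dich.Iter

set_option linter.unusedSectionVars false
set_option linter.unusedVariables false

/-!
# P125, polynomial rate for the summing operators (board 579), matrix form: definitions
-/

namespace Vale.Agent.P125.Pol

open scoped BigOperators
open Vale.Agent.P125.Dich Finset

variable {S : Type} [Fintype S] [DecidableEq S]

/-- action of a matrix on a function -/
def ap (R : Matrix S S ℝ) (F : S → ℝ) (x : S) : ℝ := ∑ y, R x y * F y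

/-- mean -/
def av (μ : S → ℝ) (F : S → ℝ) : ℝ := ∑ x, μ x * F x

/-- prefix sums `g 0 + ... + g j` -/
def H (g : ℕ → S → ℝ) (j : ℕ) (z : S) : ℝ := ∑ i ∈ range (j + 1), g i z

/-- `l_1` length of the pair `(a, b)` -/
def el (n : ℕ) (g : ℕ → S → ℝ) (a b : S) : ℝ := ∑ j ∈ range n, |g j b - g j a|

/-- one step `l_1` energy -/
def E1 (μ : S → ℝ) (P : Matrix S S ℝ) (n : ℕ) (g : ℕ → S → ℝ) : ℝ :=
  ∑ a, ∑ b, μ a * P a b * el n g a b ^ 2

/-- own weight of the coordinate `j` at `z` -/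
def w (P : Matrix S S ℝ) (g : ℕ → S → ℝ) (j : ℕ) (z : S) : ℝ := ∑ b, P z b * |g j b - g j z|

/-- mean length of an edge at `z` -/
def lb (P : Matrix S S ℝ) (n : ℕ) (g : ℕ → S → ℝ) (z : S) : ℝ := ∑ b, P z b * el n g z b

/-- the selector quantity of Step 2 -/
def Q (μ : S → ℝ) (P : Matrix S S ℝ) (n : ℕ) (g : ℕ → S → ℝ) (t : ℕ) : ℝ :=
  ∑ j ∈ range n, ∑ z, μ z * (w P g j z * ∑ c, (P ^ t) z c * |H g j c - H g j z|)

/-- block drift -/
def hh (P : Matrix S S ℝ) (g : ℕ → S → ℝ) (τ j : ℕ) (y : S) : ℝ :=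
  ap (P ^ τ) (H g j) y - H g j y

/-- the drift quantity of Step 3 -/
def Rr (μ : S → ℝ) (P : Matrix S S ℝ) (n : ℕ) (g : ℕ → S → ℝ) (τ s : ℕ) : ℝ :=
  ∑ j ∈ range n, ∑ z, μ z * (w P g j z * ap (P ^ s) (fun y => |hh P g τ j y|) z)

/-- the abstract properties of the `J` distance -/
structure JD (μ : S → ℝ) (P : Matrix S S ℝ) (n : ℕ) (g : ℕ → S → ℝ) (D : S → S → ℝ) : Prop where
  nonneg : ∀ x y, 0 ≤ D x y
  ge : ∀ j, j < n → ∀ x y, |H g j y - H g j x| ≤ D x y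
  own : ∀ x y, D x y ^ 2 ≤ 2 * ∑ j ∈ range n, |H g j y - H g j x| * |g j y - g j x|
  triv : ∀ r : ℕ, ∑ x, ∑ y, μ x * (P ^ r) x y * D x y ^ 2 ≤ (r : ℝ) ^ 2 * E1 μ P n g

/-- tail sums -/
def Ph (n : ℕ) (φ : ℕ → S → ℝ) (j : ℕ) (y : S) : ℝ := ∑ ξ ∈ Ico j n, φ ξ y

/-- Cesaro average `(1/τ) ∑_{i<τ} P^i F` -/
noncomputable def Av (P : Matrix S S ℝ) (τ : ℕ) (F : S → ℝ) (y : S) : ℝ :=
  (1 / (τ : ℝ)) * ∑ i ∈ range τ, ap (P ^ i) F y

/-- the smoothed tails -/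
noncomputable def uu (P : Matrix S S ℝ) (n : ℕ) (φ : ℕ → S → ℝ) (τ j : ℕ) : S → ℝ :=
  Av P τ (Ph n φ j)

/-- sign -/
noncomputable def sg (x : ℝ) : ℝ := if 0 ≤ x then 1 else -1

/-- transported own weights -/
def nu (P : Matrix S S ℝ) (g : ℕ → S → ℝ) (s ξ : ℕ) : S → ℝ := ap (P ^ s) (w P g ξ)

/-- the dual test functions -/
noncomputable def phi (P : Matrix S S ℝ) (g : ℕ → S → ℝ) (τ s ξ : ℕ) (y : S) : ℝ :=
  nu P g s ξ y * sg (hh P g τ ξ y)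

/-- first order variation of `v` at `a` -/
def gam (P : Matrix S S ℝ) (v : S → ℝ) (a : S) : ℝ := ∑ b, P a b * |v b - v a|

/-- carre du champ -/
def Gam (P : Matrix S S ℝ) (v : S → ℝ) (a : S) : ℝ := ∑ b, P a b * (v b - v a) ^ 2

/-- the own measure bound of Step 5 -/
noncomputable def XX (P : Matrix S S ℝ) (n : ℕ) (φ ν : ℕ → S → ℝ) (τ : ℕ) (a b : S) : ℝ :=
  2 * ∑ j ∈ range n, |uu P n φ τ j b - uu P n φ τ j a| * (Av P τ (ν j) a + Av P τ (ν j) b)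

/-- the majorant `L = P^s lb` -/
def LL (P : Matrix S S ℝ) (n : ℕ) (g : ℕ → S → ℝ) (s : ℕ) : S → ℝ := ap (P ^ s) (lb P n g)

/-- the uniform energy majorant of Step 7 -/
noncomputable def Eb (P : Matrix S S ℝ) (n : ℕ) (g : ℕ → S → ℝ) (τ s : ℕ) : S → ℝ :=
  ap (P ^ s) (fun x => ap (P ^ τ) (fun y => Av P τ (LL P n g s) y ^ 2) x
    + 2 * ∑ i ∈ range τ, ap (P ^ i) (fun y => Av P τ (LL P n g s) y *
        ((1 / (τ : ℝ)) * (ap (P ^ τ) (LL P n g s) y + LL P n g s y))) x)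

end Vale.Agent.P125.Pol
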