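import Vale.Agent.P125.Pol.Basic

set_option linter.unusedSectionVars false
set_option linter.unusedVariables false

/-! # P125 Pol: Step 4 (duality) -/

namespace Vale.Agent.P125.Pol

open scoped BigOperators
open Vale.Agent.P125.Dich Finset

variable {S : Type} [Fintype S] [DecidableEq S]

/-- `Rr` as a pairing with the dual test functions (self-adjointness of `P^s`, `|x| = sg x * x`) -/
theorem Rr_eq {μ : S → ℝ} {P : Matrix S S ℝ} (hP : IsChain μ P) (n : ℕ) (g : ℕ → S → ℝ)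
    (τ s : ℕ) :
    Rr μ P n g τ s = ∑ ξ ∈ range n, av μ (fun y => phi P g τ s ξ y * hh P g τ ξ y) := by
  sorry

/-- the duality identity, for arbitrary test functions `φ`:
`∑_ξ <φ_ξ, (P^τ-1) H_ξ> = ∑_j <Φ^j, (P^τ-1) g_j> = ∑_j <(P-1) τ u_j, g_j>` + `dirichlet`. -/
theorem dual {μ : S → ℝ} {P : Matrix S S ℝ} (hP : IsChain μ P) (n : ℕ) (g : ℕ → S → ℝ)
    (φ : ℕ → S → ℝ) (τ : ℕ) (hτ : 1 ≤ τ) :
    ∑ ξ ∈ range n, av μ (fun y => φ ξ y * hh P g τ ξ y) =
      -((τ : ℝ) / 2) * ∑ a, ∑ b, μ a * P a b *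
        ∑ j ∈ range n, (uu P n φ τ j b - uu P n φ τ j a) * (g j b - g j a) := by
  sorry

end Vale.Agent.P125.Pol
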