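import Vale.Agent.P125.Pol.Basic

set_option linter.unusedSectionVars false
set_option linter.unusedVariables false

/-! # P125 Pol: Steps 1-2 (own measure + splitting at the edge), and the sequence lemmas -/

namespace Vale.Agent.P125.Pol

open scoped BigOperators
open Vale.Agent.P125.Dich Finset

variable {S : Type} [Fintype S] [DecidableEq S]

/-- Steps 1-2 of board 579 in matrix form.  Proof: `JD.own`, then with
`B k = ∑ x v y, μ x (P^k) x v (P^(t-k)) v y ∑ j, |H j y - H j x| |g j v - g j x|`
(`B 0 = 0`, `B t` = the wanted sum) show `B (k+1) - B k ≤ Q (t-k-1) + E1 + Q k` by expanding into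
sums over `(x, a, b, y)` with weight `μ x (P^k) x a P a b (P^(t-k-1)) b y`, the triangle
inequality `|H y - H x| ≤ |H y - H b| + |H b - H a| + |H a - H x|`, stationarity and
reversibility. -/
theorem step12 {μ : S → ℝ} {P : Matrix S S ℝ} (hP : IsChain μ P) (n : ℕ) (g : ℕ → S → ℝ)
    (D : S → S → ℝ) (hD : JD μ P n g D) (t : ℕ) :
    ∑ x, ∑ y, μ x * (P ^ t) x y * D x y ^ 2 ≤
      2 * ((t : ℝ) * E1 μ P n g + 2 * ∑ t' ∈ range t, Q μ P n g t') := by
  sorry

end Vale.Agent.P125.Pol
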