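import Vale.Agent.P125.Pol.Mart

set_option linter.unusedSectionVars false
set_option linter.unusedVariables false

/-! # P125 Pol: Step 3 (blocks of length τ) -/

namespace Vale.Agent.P125.Pol

open scoped BigOperators
open Vale.Agent.P125.Dich Finset

variable {S : Type} [Fintype S] [DecidableEq S]

/-- Step 3.  `P^(mτ+r) = (P^τ)^m P^r`; `|H c - H z| ≤ |H y - H z| + |H c - H y|`; first part by
`mart` with `R = P^τ`, `c = H z`, `Gam R (H j) y ≤ ∑ y', (P^τ) y y' D y y'^2` (`JD.ge`), then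
`sum_w`, Cauchy-Schwarz `av_mul_le`, `av_lb_sq_le`, stationarity, `JD.triv τ`; second part
`≤ av (lb * P^(mτ) d_r)`, `d_r y = ∑ c, (P^r) y c D y c`, Cauchy-Schwarz, contraction, Jensen,
`JD.triv r`. -/
theorem step3 {μ : S → ℝ} {P : Matrix S S ℝ} (hP : IsChain μ P) (n : ℕ) (g : ℕ → S → ℝ)
    (D : S → S → ℝ) (hD : JD μ P n g D) (τ m r : ℕ) (hr : r ≤ τ) :
    Q μ P n g (m * τ + r) ≤
      (Real.sqrt m * τ + τ) * E1 μ P n g + ∑ j ∈ range m, Rr μ P n g τ (j * τ) := by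
  sorry

end Vale.Agent.P125.Pol
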