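import Vale.Agent.P125.Pol.RrB
import Vale.Agent.P125.Pol.S12
import Vale.Agent.P125.Pol.S3

set_option linter.unusedSectionVars false
set_option linter.unusedVariables false

namespace Vale.Agent.P125.Pol

open scoped BigOperators
open Vale.Agent.P125.Dich Finset

variable {S : Type} [Fintype S] [DecidableEq S]

/-- bound of `Q t'` for `t' ≤ t`: `step3` with `m = t'/τ`, `r = t' % τ`, and `RrBound`. -/
theorem Q_le {μ : S → ℝ} {P : Matrix S S ℝ} (hP : IsChain μ P) (n : ℕ) (g : ℕ → S → ℝ)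
    (D : S → S → ℝ) (hD : JD μ P n g D) (t τ : ℕ) (hτ : 1 ≤ τ) (t' : ℕ) (ht' : t' ≤ t) :
    Q μ P n g t' ≤ (Real.sqrt ((t : ℝ) * τ) + τ + 3 / 2 * ((t : ℝ) / Real.sqrt (Real.sqrt τ)))
      * E1 μ P n g := by
  have hE := E1_nonneg hP n g
  have hτ0 : 0 < τ := hτ
  have hdm : (t' / τ) * τ + t' % τ = t' := by
    rw [mul_comm]; exact Nat.div_add_mod t' τ
  have hr : t' % τ ≤ τ := (Nat.mod_lt t' hτ0).le
  have h3 := step3 hP n g D hD τ (t' / τ) (t' % τ) hr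
  rw [hdm] at h3
  set m : ℕ := t' / τ with hm
  have hmτN : m * τ ≤ t := le_trans (by omega) ht'
  have hmτ : (m : ℝ) * (τ : ℝ) ≤ (t : ℝ) := by exact_mod_cast hmτN
  have hτR : (1 : ℝ) ≤ (τ : ℝ) := by exact_mod_cast hτ
  have hτpos : (0 : ℝ) < (τ : ℝ) := by linarith
  have hss : 0 < Real.sqrt (Real.sqrt (τ : ℝ)) := Real.sqrt_pos.2 (Real.sqrt_pos.2 hτpos)
  have hm0 : (0 : ℝ) ≤ (m : ℝ) := Nat.cast_nonneg m
  -- the square root term
  have h1 : Real.sqrt (m : ℝ) * (τ : ℝ) ≤ Real.sqrt ((t : ℝ) * τ) := by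
    have hsq : (Real.sqrt (m : ℝ) * (τ : ℝ)) ^ 2 ≤ (t : ℝ) * τ := by
      rw [mul_pow, Real.sq_sqrt hm0]
      have := mul_le_mul_of_nonneg_right hmτ hτpos.le
      nlinarith
    exact (le_abs_self _).trans (Real.abs_le_sqrt hsq)
  -- the drift terms
  have h2 : ∑ j ∈ range m, Rr μ P n g τ (j * τ) ≤
      3 / 2 * ((t : ℝ) / Real.sqrt (Real.sqrt τ)) * E1 μ P n g := by
    have hb : ∑ j ∈ range m, Rr μ P n g τ (j * τ) ≤
        ∑ j ∈ range m, 3 / 2 * ((τ : ℝ) / Real.sqrt (Real.sqrt τ)) * E1 μ P n g :=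
      Finset.sum_le_sum fun j _ => RrBound hP n g τ (j * τ) hτ
    refine hb.trans ?_
    rw [Finset.sum_const, Finset.card_range, nsmul_eq_mul]
    have hdiv : (m : ℝ) * ((τ : ℝ) / Real.sqrt (Real.sqrt τ)) ≤
        (t : ℝ) / Real.sqrt (Real.sqrt τ) := by
      rw [← mul_div_assoc]
      exact div_le_div_of_nonneg_right hmτ hss.le
    have := mul_le_mul_of_nonneg_right hdiv hE
    nlinarith
  have h4 : (Real.sqrt (m : ℝ) * (τ : ℝ) + τ) * E1 μ P n g ≤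
      (Real.sqrt ((t : ℝ) * τ) + τ) * E1 μ P n g :=
    mul_le_mul_of_nonneg_right (by linarith) hE
  calc Q μ P n g t' ≤ (Real.sqrt (m : ℝ) * τ + τ) * E1 μ P n g
        + ∑ j ∈ range m, Rr μ P n g τ (j * τ) := h3
    _ ≤ (Real.sqrt ((t : ℝ) * τ) + τ) * E1 μ P n g
        + 3 / 2 * ((t : ℝ) / Real.sqrt (Real.sqrt τ)) * E1 μ P n g := add_le_add h4 h2
    _ = _ := by ring

/-- the two parameter bound -/
theorem two_param {μ : S → ℝ} {P : Matrix S S ℝ} (hP : IsChain μ P) (n : ℕ) (g : ℕ → S → ℝ)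
    (D : S → S → ℝ) (hD : JD μ P n g D) (t τ : ℕ) (hτ : 1 ≤ τ) :
    ∑ x, ∑ y, μ x * (P ^ t) x y * D x y ^ 2 ≤
      (2 * (t : ℝ) + 4 * t * (Real.sqrt ((t : ℝ) * τ) + τ
        + 3 / 2 * ((t : ℝ) / Real.sqrt (Real.sqrt τ)))) * E1 μ P n g := by
  have h12 := step12 hP n g D hD t
  have hs : ∑ t' ∈ range t, Q μ P n g t' ≤
      ∑ t' ∈ range t, (Real.sqrt ((t : ℝ) * τ) + τ
        + 3 / 2 * ((t : ℝ) / Real.sqrt (Real.sqrt τ))) * E1 μ P n g :=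
    Finset.sum_le_sum fun t' ht' => Q_le hP n g D hD t τ hτ t' (Finset.mem_range.1 ht').le
  rw [Finset.sum_const, Finset.card_range, nsmul_eq_mul] at hs
  refine h12.trans ?_
  have : 2 * ((t : ℝ) * E1 μ P n g + 2 * ∑ t' ∈ range t, Q μ P n g t') ≤
      2 * ((t : ℝ) * E1 μ P n g + 2 * ((t : ℝ) * ((Real.sqrt ((t : ℝ) * τ) + τ
        + 3 / 2 * ((t : ℝ) / Real.sqrt (Real.sqrt τ))) * E1 μ P n g))) := by
    linarith
  refine this.trans (le_of_eq ?_)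
  ring

end Vale.Agent.P125.Pol
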