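import Vale.Agent.P125.Pol.Fin
import Vale.Agent.P125.Pol.Arith
import Vale.Agent.P125.Pol.Conc

set_option linter.unusedSectionVars false
set_option linter.unusedVariables false

namespace Vale.Agent.P125.Pol

open scoped BigOperators
open Vale.Agent.P125.Dich Finset

/-- polynomial rate for the summing operators -/
theorem poly_rate (t : ℕ) (ht : 1 ≤ t) (n : ℕ) (S : Type) [Fintype S] [DecidableEq S]
    (μ : S → ℝ) (P : Matrix S S ℝ) (hP : IsChain μ P) (f : S → Fin n → ℝ) :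
    ∑ i, ∑ j, μ i * (P ^ t) i j * H34.nJ n (f j - f i) ^ 2 ≤
      22 * (t : ℝ) ^ ((11 : ℝ) / 6) * ∑ i, ∑ j, μ i * P i j * H34.n1 n (f j - f i) ^ 2 := by
  obtain ⟨τ, hτ, hle⟩ := arith t ht
  have h := two_param hP n (gf f) _ (jd_gf hP f) t τ hτ
  rw [E1_gf] at h
  refine h.trans (mul_le_mul_of_nonneg_right hle ?_)
  obtain ⟨h1, _, h3, _, _⟩ := hP
  exact Finset.sum_nonneg fun i _ => Finset.sum_nonneg fun j _ =>
    mul_nonneg (mul_nonneg (h1 i) (h3 i j)) (sq_nonneg _)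

end Vale.Agent.P125.Pol
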