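import Vale.Agent.P125.Pol.Basic
import Vale.Agent.P125.Poly.SqrtStep_51

set_option linter.unusedSectionVars false
set_option linter.unusedVariables false

/-! # P125 Pol: the martingale step without path space -/

namespace Vale.Agent.P125.Pol

open scoped BigOperators
open Vale.Agent.P125.Dich Finset

variable {S : Type} [Fintype S] [DecidableEq S]

/-- Induction on `m` (generalizing `z`), `R^(m+1) = R * R^m`, Jensen for sqrt (`ap_sqrt_le`),
`∑ R z y (F y - c)^2 ≤ Gam R F z + (F z - c + h z)^2` and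
`sqrt (A + (b + h)^2) ≤ sqrt (A + b^2) + |h|`. -/
theorem mart (R : Matrix S S ℝ) (h0 : ∀ i j, 0 ≤ R i j) (h1 : ∀ i, ∑ j, R i j = 1)
    (F : S → ℝ) (m : ℕ) (z : S) (c : ℝ) :
    ap (R ^ m) (fun y => |F y - c|) z ≤
      Real.sqrt ((F z - c) ^ 2 + ∑ j ∈ range m, ap (R ^ j) (Gam R F) z)
        + ∑ j ∈ range m, ap (R ^ j) (fun y => |ap R F y - F y|) z :=
  Poly51.sqrt_step R h0 h1 F c m z

end Vale.Agent.P125.Pol
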