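import Vale.Agent.P125.Pol.Basic

set_option linter.unusedSectionVars false
set_option linter.unusedVariables false

namespace Vale.Agent.P125.Pol

open scoped BigOperators
open Vale.Agent.P125.Dich Finset

variable {S : Type} [Fintype S] [DecidableEq S]

/-- `gam v ≤ sqrt (Gam v)` (Jensen), `ap_sqrt_le` twice, and
`(1/τ) ∑_{i<τ} sqrt (x i) ≤ sqrt ((1/τ) ∑ x i)`. -/
theorem path_var {μ : S → ℝ} {P : Matrix S S ℝ} (hP : IsChain μ P) (v : S → ℝ) (τ s : ℕ)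
    (hτ : 1 ≤ τ) (z : S) :
    ap (P ^ s) (Av P τ (gam P v)) z ≤
      Real.sqrt ((1 / (τ : ℝ)) *
        ap (P ^ s) (fun x => ∑ i ∈ range τ, ap (P ^ i) (Gam P v) x) z) := by
  sorry

/-- Cauchy-Schwarz over the edges -/
theorem cs_pair {μ : S → ℝ} {P : Matrix S S ℝ} (hP : IsChain μ P) (X Y : S → S → ℝ) :
    ∑ a, ∑ b, μ a * P a b * (X a b * Y a b) ≤
      Real.sqrt (∑ a, ∑ b, μ a * P a b * X a b ^ 2) *
        Real.sqrt (∑ a, ∑ b, μ a * P a b * Y a b ^ 2) := by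
  sorry

end Vale.Agent.P125.Pol
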