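import Vale.Agent.P125.Pol.Asm
import Vale.Agent.P125.Pol.Dual

set_option linter.unusedSectionVars false
set_option linter.unusedVariables false

namespace Vale.Agent.P125.Pol

open scoped BigOperators
open Vale.Agent.P125.Dich Finset

variable {S : Type} [Fintype S] [DecidableEq S]

lemma abs_phi_le {μ : S → ℝ} {P : Matrix S S ℝ} (hP : IsChain μ P) (g : ℕ → S → ℝ)
    (τ s ξ : ℕ) (y : S) : |phi P g τ s ξ y| ≤ nu P g s ξ y := by
  have hnn : 0 ≤ nu P g s ξ y :=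
    ap_nonneg (isChain_pow hP s).2.2.1 (fun z => w_nonneg hP g ξ z) y
  unfold phi
  rw [abs_mul, abs_of_nonneg hnn]
  have hs : |sg (hh P g τ ξ y)| = 1 := by
    unfold sg
    split_ifs <;> simp
  rw [hs, mul_one]

private lemma scal64 (τ E A : ℝ) (hτ : 1 ≤ τ) (hE : 0 ≤ E) (hA0 : 0 ≤ A)
    (hA : A ≤ 4 * Real.sqrt 5 * E / Real.sqrt τ) :
    τ / 2 * (Real.sqrt A * Real.sqrt E) ≤ 3 / 2 * (τ / Real.sqrt (Real.sqrt τ)) * E := by
  have hτ0 : 0 < τ := by linarith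
  set c : ℝ := Real.sqrt (Real.sqrt 5) with hc
  set e : ℝ := Real.sqrt E with he
  set r : ℝ := Real.sqrt (Real.sqrt τ) with hr
  have hc2 : c ^ 2 = Real.sqrt 5 := Real.sq_sqrt (Real.sqrt_nonneg _)
  have he2 : e ^ 2 = E := Real.sq_sqrt hE
  have hr2 : r ^ 2 = Real.sqrt τ := Real.sq_sqrt (Real.sqrt_nonneg _)
  have hr0 : 0 < r := Real.sqrt_pos.mpr (Real.sqrt_pos.mpr hτ0)
  have hc0 : 0 ≤ c := Real.sqrt_nonneg _
  have he0 : 0 ≤ e := Real.sqrt_nonneg _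
  have hc32 : c ≤ 3 / 2 := by
    rw [hc]
    apply Real.sqrt_le_iff.mpr
    refine ⟨by norm_num, ?_⟩
    apply Real.sqrt_le_iff.mpr
    refine ⟨by norm_num, by norm_num⟩
  have hA' : Real.sqrt A ≤ 2 * c * e / r := by
    apply Real.sqrt_le_iff.mpr
    refine ⟨by positivity, ?_⟩
    calc A ≤ 4 * Real.sqrt 5 * E / Real.sqrt τ := hA
      _ = (2 * c * e / r) ^ 2 := by
          rw [← hc2, ← he2, ← hr2]
          field_simp
          ring
  calc τ / 2 * (Real.sqrt A * e) ≤ τ / 2 * ((2 * c * e / r) * e) := by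
        apply mul_le_mul_of_nonneg_left _ (by positivity)
        exact mul_le_mul_of_nonneg_right hA' he0
    _ = c * ((τ / r) * e ^ 2) := by
        field_simp
    _ ≤ 3 / 2 * ((τ / r) * e ^ 2) := by
        apply mul_le_mul_of_nonneg_right hc32
        positivity
    _ = 3 / 2 * (τ / r) * E := by rw [he2]; ring

/-- Steps 4-7 assembled: `Rr_eq`, `dual`, `step5` (so `|Δ uu j| ≤ sqrt XX`), `cs_pair`, `asm67`,
`sqrt (sqrt 5) ≤ 3/2`. -/
theorem RrBound {μ : S → ℝ} {P : Matrix S S ℝ} (hP : IsChain μ P) (n : ℕ) (g : ℕ → S → ℝ)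
    (τ s : ℕ) (hτ : 1 ≤ τ) :
    Rr μ P n g τ s ≤ 3 / 2 * ((τ : ℝ) / Real.sqrt (Real.sqrt τ)) * E1 μ P n g := by
  have hμ : ∀ i, 0 ≤ μ i := hP.1
  have hPn : ∀ i j, 0 ≤ P i j := hP.2.2.1
  set φ : ℕ → S → ℝ := phi P g τ s with hφdef
  set ν : ℕ → S → ℝ := nu P g s with hνdef
  have hφ : ∀ ξ y, |φ ξ y| ≤ ν ξ y := fun ξ y => abs_phi_le hP g τ s ξ y
  have hτR : (1 : ℝ) ≤ (τ : ℝ) := by exact_mod_cast hτ
  have hXX0 : ∀ a b, 0 ≤ XX P n φ ν τ a b := fun a b =>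
    le_trans (sq_nonneg _) (step5 hP n φ ν hφ τ 0 (Nat.zero_le n) a b)
  have e1 : Rr μ P n g τ s = -((τ : ℝ) / 2) * ∑ a, ∑ b, μ a * P a b *
        ∑ j ∈ range n, (uu P n φ τ j b - uu P n φ τ j a) * (g j b - g j a) := by
    rw [Rr_eq hP n g τ s]
    exact dual hP n g φ τ hτ
  have pw : ∀ a b, -(∑ j ∈ range n, (uu P n φ τ j b - uu P n φ τ j a) * (g j b - g j a)) ≤
      Real.sqrt (XX P n φ ν τ a b) * el n g a b := by
    intro a b
    unfold el
    rw [← Finset.sum_neg_distrib, Finset.mul_sum]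
    refine Finset.sum_le_sum fun j hj => ?_
    have hj' : j ≤ n := (Finset.mem_range.mp hj).le
    have h5 : |uu P n φ τ j b - uu P n φ τ j a| ≤ Real.sqrt (XX P n φ ν τ a b) :=
      Real.abs_le_sqrt (step5 hP n φ ν hφ τ j hj' a b)
    calc -((uu P n φ τ j b - uu P n φ τ j a) * (g j b - g j a))
        ≤ |(uu P n φ τ j b - uu P n φ τ j a) * (g j b - g j a)| := neg_le_abs _
      _ = |uu P n φ τ j b - uu P n φ τ j a| * |g j b - g j a| := abs_mul _ _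
      _ ≤ Real.sqrt (XX P n φ ν τ a b) * |g j b - g j a| :=
          mul_le_mul_of_nonneg_right h5 (abs_nonneg _)
  have e2 : -(∑ a, ∑ b, μ a * P a b *
        ∑ j ∈ range n, (uu P n φ τ j b - uu P n φ τ j a) * (g j b - g j a)) ≤
      ∑ a, ∑ b, μ a * P a b * (Real.sqrt (XX P n φ ν τ a b) * el n g a b) := by
    rw [← Finset.sum_neg_distrib]
    refine Finset.sum_le_sum fun a _ => ?_
    rw [← Finset.sum_neg_distrib]
    refine Finset.sum_le_sum fun b _ => ?_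
    rw [← mul_neg]
    exact mul_le_mul_of_nonneg_left (pw a b) (mul_nonneg (hμ a) (hPn a b))
  have e3 := cs_pair hP (fun a b => Real.sqrt (XX P n φ ν τ a b)) (fun a b => el n g a b)
  have e4 : ∑ a, ∑ b, μ a * P a b * Real.sqrt (XX P n φ ν τ a b) ^ 2 =
      ∑ a, ∑ b, μ a * P a b * XX P n φ ν τ a b := by
    refine Finset.sum_congr rfl fun a _ => Finset.sum_congr rfl fun b _ => ?_
    rw [Real.sq_sqrt (hXX0 a b)]
  rw [e4] at e3
  have e5 : ∑ a, ∑ b, μ a * P a b * el n g a b ^ 2 = E1 μ P n g := rfl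
  rw [e5] at e3
  have e6 := asm67 hP n g τ s hτ φ hφ
  have hA0 : 0 ≤ ∑ a, ∑ b, μ a * P a b * XX P n φ ν τ a b :=
    Finset.sum_nonneg fun a _ => Finset.sum_nonneg fun b _ =>
      mul_nonneg (mul_nonneg (hμ a) (hPn a b)) (hXX0 a b)
  have key := scal64 (τ : ℝ) (E1 μ P n g) _ hτR (E1_nonneg hP n g) hA0 e6
  have hτ2 : (0 : ℝ) ≤ (τ : ℝ) / 2 := by positivity
  calc Rr μ P n g τ s
      = (τ : ℝ) / 2 * -(∑ a, ∑ b, μ a * P a b *
        ∑ j ∈ range n, (uu P n φ τ j b - uu P n φ τ j a) * (g j b - g j a)) := by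
          rw [e1]; ring
    _ ≤ (τ : ℝ) / 2 * (Real.sqrt (∑ a, ∑ b, μ a * P a b * XX P n φ ν τ a b) *
          Real.sqrt (E1 μ P n g)) :=
        mul_le_mul_of_nonneg_left (le_trans e2 e3) hτ2
    _ ≤ 3 / 2 * ((τ : ℝ) / Real.sqrt (Real.sqrt τ)) * E1 μ P n g := key

end Vale.Agent.P125.Pol
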